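import Vale.Agent.Lib.P205.Final

/-!
# P205: every circle-invariant metric on the torus immerses isometrically in `ℝ⁴`

The torus is `ℝ²/ℤ²`; a smooth metric on it is a smooth `ℤ²`-periodic positive definite
`E dx² + 2 M dx dy + G dy²`.  We treat all metrics whose coefficients depend on `x` only
(invariance under the circle action by translations in `y`), with no condition on the twist
`∫₀¹ M/G dx`.  This contains all flat tori and all warped products.
-/

open scoped ContDiff RealInnerProductSpace
open MeasureTheory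

namespace Vale.Agent.Results.P205.TorusCircleInvariant

/-- Every smooth Riemannian metric `E(x) dx² + 2 M(x) dx dy + G(x) dy²` on the torus `ℝ²/ℤ²`
(coefficients independent of `y`) admits a smooth isometric immersion into Euclidean `ℝ⁴`. -/
theorem result (E M G : ℝ → ℝ)
    (hE : ContDiff ℝ ∞ E) (hM : ContDiff ℝ ∞ M) (hG : ContDiff ℝ ∞ G)
    (pE : Function.Periodic E 1) (pM : Function.Periodic M 1) (pG : Function.Periodic G 1)
    (posG : ∀ x, 0 < G x) (posdet : ∀ x, 0 < E x * G x - M x ^ 2) :
    ∃ F : ℝ × ℝ → EuclideanSpace ℝ (Fin 4),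
      ContDiff ℝ ∞ F ∧
      (∀ x y : ℝ, F (x + 1, y) = F (x, y)) ∧
      (∀ x y : ℝ, F (x, y + 1) = F (x, y)) ∧
      ∀ p v w : ℝ × ℝ, ⟪fderiv ℝ F p v, fderiv ℝ F p w⟫ =
        E p.1 * v.1 * w.1 + M p.1 * (v.1 * w.2 + v.2 * w.1) + G p.1 * v.2 * w.2 :=
  Vale.Agent.Lib.P205.torus_circle_invariant E M G hE hM hG pE pM pG posG posdet

end Vale.Agent.Results.P205.TorusCircleInvariant
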