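import Mathlib

/-!
# P205: circle-invariant metrics on the torus immerse isometrically in `ℝ⁴`

The torus is `ℝ²/ℤ²`; a smooth metric on it is a smooth `ℤ²`-periodic positive definite
`E dx² + 2 M dx dy + G dy²`.  We treat all metrics whose coefficients depend on `x` only
(invariance under the circle action by translations in `y`) and whose twist
`∫₀¹ M/G dx` is rational; this contains all warped products `E(x) dx² + G(x) dy²`.
-/

open scoped ContDiff RealInnerProductSpace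
open MeasureTheory

namespace Vale.Agent.Results.P205.TorusCircleInvariantRat

/-- the model map: an `a/2π`-fold wrapped circle of radius `r x` with phase shift `ψ x`, times a
circle of radius `R` run through with arclength parameter `s x`. -/
noncomputable def model (r ψ s : ℝ → ℝ) (a R : ℝ) (p : ℝ × ℝ) : EuclideanSpace ℝ (Fin 4) :=
  !₂[r p.1 * Real.cos (a * (p.2 + ψ p.1)), r p.1 * Real.sin (a * (p.2 + ψ p.1)),
     R * Real.cos (R⁻¹ * s p.1), R * Real.sin (R⁻¹ * s p.1)]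

lemma model_contDiff {r ψ s : ℝ → ℝ} {a R : ℝ} (hr : ContDiff ℝ ∞ r) (hψ : ContDiff ℝ ∞ ψ)
    (hs : ContDiff ℝ ∞ s) : ContDiff ℝ ∞ (model r ψ s a R) := by
  rw [contDiff_euclidean]
  intro i
  have h1 : ContDiff ℝ ∞ (fun p : ℝ × ℝ => r p.1) := hr.comp contDiff_fst
  have h2 : ContDiff ℝ ∞ (fun p : ℝ × ℝ => ψ p.1) := hψ.comp contDiff_fst
  have h3 : ContDiff ℝ ∞ (fun p : ℝ × ℝ => s p.1) := hs.comp contDiff_fst
  have h4 : ContDiff ℝ ∞ (fun p : ℝ × ℝ => p.2) := contDiff_snd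
  fin_cases i
  · simp only [model]
    exact h1.mul (Real.contDiff_cos.comp (contDiff_const.mul (h4.add h2)))
  · simp only [model]
    exact h1.mul (Real.contDiff_sin.comp (contDiff_const.mul (h4.add h2)))
  · simp only [model]
    exact contDiff_const.mul (Real.contDiff_cos.comp (contDiff_const.mul h3))
  · simp only [model]
    exact contDiff_const.mul (Real.contDiff_sin.comp (contDiff_const.mul h3))

lemma model_inner {r ψ s : ℝ → ℝ} {a R : ℝ} (hR : R ≠ 0) (hr : ContDiff ℝ ∞ r)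
    (hψ : ContDiff ℝ ∞ ψ) (hs : ContDiff ℝ ∞ s) (p v w : ℝ × ℝ) :
    ⟪fderiv ℝ (model r ψ s a R) p v, fderiv ℝ (model r ψ s a R) p w⟫ =
      ((deriv r p.1) ^ 2 + (r p.1) ^ 2 * a ^ 2 * (deriv ψ p.1) ^ 2 + (deriv s p.1) ^ 2) * v.1 * w.1
      + (r p.1) ^ 2 * a ^ 2 * deriv ψ p.1 * (v.1 * w.2 + v.2 * w.1)
      + (r p.1) ^ 2 * a ^ 2 * v.2 * w.2 := by
  have hdiff : DifferentiableAt ℝ (model r ψ s a R) p :=
    ((model_contDiff hr hψ hs).differentiable (by simp)).differentiableAt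
  have hcomp : ∀ (i : Fin 4) (u : ℝ × ℝ), (fderiv ℝ (model r ψ s a R) p u) i =
      fderiv ℝ (fun q => model r ψ s a R q i) p u := by
    intro i u
    have := ((EuclideanSpace.proj (𝕜 := ℝ) i).hasFDerivAt.comp p hdiff.hasFDerivAt).fderiv
    have h2 : (fun q => model r ψ s a R q i)
        = (EuclideanSpace.proj (𝕜 := ℝ) i) ∘ (model r ψ s a R) := by
      ext q; simp
    rw [h2, this]; simp
  have dr : HasFDerivAt (fun q : ℝ × ℝ => r q.1) (deriv r p.1 • ContinuousLinearMap.fst ℝ ℝ ℝ) p :=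
    ((hr.differentiable (by simp)).differentiableAt.hasDerivAt).comp_hasFDerivAt p hasFDerivAt_fst
  have dψ : HasFDerivAt (fun q : ℝ × ℝ => ψ q.1) (deriv ψ p.1 • ContinuousLinearMap.fst ℝ ℝ ℝ) p :=
    ((hψ.differentiable (by simp)).differentiableAt.hasDerivAt).comp_hasFDerivAt p hasFDerivAt_fst
  have ds : HasFDerivAt (fun q : ℝ × ℝ => s q.1) (deriv s p.1 • ContinuousLinearMap.fst ℝ ℝ ℝ) p :=
    ((hs.differentiable (by simp)).differentiableAt.hasDerivAt).comp_hasFDerivAt p hasFDerivAt_fst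
  have dθ : HasFDerivAt (fun q : ℝ × ℝ => a * (q.2 + ψ q.1)) _ p :=
    ((hasFDerivAt_snd (𝕜 := ℝ) (p := p) (E := ℝ) (F := ℝ)).add dψ).const_mul a
  have dσ : HasFDerivAt (fun q : ℝ × ℝ => R⁻¹ * s q.1) _ p := ds.const_mul R⁻¹
  have d0 : fderiv ℝ (fun q => model r ψ s a R q 0) p = _ := (dr.mul dθ.cos).fderiv
  have d1 : fderiv ℝ (fun q => model r ψ s a R q 1) p = _ := (dr.mul dθ.sin).fderiv
  have d2 : fderiv ℝ (fun q => model r ψ s a R q 2) p = _ := (dσ.cos.const_mul R).fderiv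
  have d3 : fderiv ℝ (fun q => model r ψ s a R q 3) p = _ := (dσ.sin.const_mul R).fderiv
  rw [PiLp.inner_apply, Fin.sum_univ_four]
  simp only [hcomp, d0, d1, d2, d3]
  simp
  have hc := Real.sin_sq_add_cos_sq (a * (p.2 + ψ p.1))
  have hc2 := Real.sin_sq_add_cos_sq (R⁻¹ * s p.1)
  have hRR : R * R⁻¹ = 1 := mul_inv_cancel₀ hR
  linear_combination ((r p.1 * a * (w.2 + deriv ψ p.1 * w.1)) * (r p.1 * a * (v.2 + deriv ψ p.1 * v.1))
      + (deriv r p.1 * w.1) * (deriv r p.1 * v.1)) * hc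
    + (deriv s p.1) ^ 2 * v.1 * w.1 * (R * R⁻¹) ^ 2 * hc2
    + (deriv s p.1) ^ 2 * v.1 * w.1 * (R * R⁻¹ + 1) * hRR

lemma prim_hasDerivAt {h : ℝ → ℝ} (hc : Continuous h) (x : ℝ) :
    HasDerivAt (fun u => ∫ t in (0:ℝ)..u, h t) (h x) x :=
  intervalIntegral.integral_hasDerivAt_right (hc.intervalIntegrable _ _)
    (hc.stronglyMeasurableAtFilter _ _) hc.continuousAt

lemma prim_deriv {h : ℝ → ℝ} (hc : Continuous h) :
    deriv (fun u => ∫ t in (0:ℝ)..u, h t) = h := by
  ext x; exact (prim_hasDerivAt hc x).deriv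

lemma prim_contDiff {h : ℝ → ℝ} (hh : ContDiff ℝ ∞ h) :
    ContDiff ℝ ∞ (fun u => ∫ t in (0:ℝ)..u, h t) := by
  rw [contDiff_infty_iff_deriv]
  refine ⟨fun x => (prim_hasDerivAt hh.continuous x).differentiableAt, ?_⟩
  rw [prim_deriv hh.continuous]; exact hh

lemma prim_periodic {h : ℝ → ℝ} (hc : Continuous h) (hp : Function.Periodic h 1) (x : ℝ) :
    ∫ t in (0:ℝ)..(x + 1), h t = (∫ t in (0:ℝ)..x, h t) + ∫ t in (0:ℝ)..1, h t := by
  rw [← intervalIntegral.integral_add_adjacent_intervals (hc.intervalIntegrable 0 x)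
    (hc.intervalIntegrable x (x + 1)), hp.intervalIntegral_add_eq x 0, zero_add]

lemma periodic_lower {f : ℝ → ℝ} (hc : Continuous f) (hp : Function.Periodic f 1)
    (hpos : ∀ x, 0 < f x) : ∃ c, 0 < c ∧ ∀ x, c ≤ f x := by
  have hK : IsCompact (Set.range f) := hp.compact_of_continuous one_ne_zero hc
  obtain ⟨x0, hx0⟩ := hK.sInf_mem (Set.range_nonempty f)
  refine ⟨f x0, hpos x0, fun x => ?_⟩
  rw [hx0]
  exact csInf_le hK.bddBelow (Set.mem_range_self x)

lemma periodic_upper {f : ℝ → ℝ} (hc : Continuous f) (hp : Function.Periodic f 1) :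
    ∃ C, 0 < C ∧ ∀ x, |f x| ≤ C := by
  have hK := hp.isBounded_of_continuous one_ne_zero hc
  obtain ⟨C, hC⟩ := hK.exists_norm_le
  refine ⟨max C 1, by positivity, fun x => ?_⟩
  exact le_trans (hC _ (Set.mem_range_self x)) (le_max_left _ _)

lemma periodic_deriv {f : ℝ → ℝ} (hp : Function.Periodic f 1) :
    Function.Periodic (deriv f) 1 := by
  intro x
  rw [← deriv_comp_add_const]
  congr 1
  ext y; exact hp y

/-- Every smooth Riemannian metric `E(x) dx² + 2 M(x) dx dy + G(x) dy²` on the torus `ℝ²/ℤ²`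
(coefficients independent of `y`) with rational twist `∫₀¹ M/G` admits a smooth isometric
immersion into Euclidean `ℝ⁴`. -/
theorem result (E M G : ℝ → ℝ)
    (hE : ContDiff ℝ ∞ E) (hM : ContDiff ℝ ∞ M) (hG : ContDiff ℝ ∞ G)
    (pE : Function.Periodic E 1) (pM : Function.Periodic M 1) (pG : Function.Periodic G 1)
    (posG : ∀ x, 0 < G x) (posdet : ∀ x, 0 < E x * G x - M x ^ 2)
    (twist : ∃ q : ℚ, ∫ x in (0:ℝ)..1, M x / G x = (q : ℝ)) :
    ∃ F : ℝ × ℝ → EuclideanSpace ℝ (Fin 4),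
      ContDiff ℝ ∞ F ∧
      (∀ x y : ℝ, F (x + 1, y) = F (x, y)) ∧
      (∀ x y : ℝ, F (x, y + 1) = F (x, y)) ∧
      ∀ p v w : ℝ × ℝ, ⟪fderiv ℝ F p v, fderiv ℝ F p w⟫ =
        E p.1 * v.1 * w.1 + M p.1 * (v.1 * w.2 + v.2 * w.1) + G p.1 * v.2 * w.2 := by
  obtain ⟨q, hq⟩ := twist
  have hGne : ∀ x, G x ≠ 0 := fun x => (posG x).ne'
  -- square root of G
  set g0 : ℝ → ℝ := fun x => √(G x) with hg0
  have hg0s : ContDiff ℝ ∞ g0 := hG.sqrt hGne
  have pg0 : Function.Periodic g0 1 := fun x => by simp only [hg0, pG x]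
  set d : ℝ → ℝ := deriv g0 with hd
  have hds : ContDiff ℝ ∞ d := (contDiff_infty_iff_deriv.mp hg0s).2
  have pd : Function.Periodic d 1 := periodic_deriv pg0
  -- the reduced coefficient
  set Δ : ℝ → ℝ := fun x => E x - M x ^ 2 / G x with hΔ
  have hΔs : ContDiff ℝ ∞ Δ := hE.sub ((hM.pow 2).div hG hGne)
  have pΔ : Function.Periodic Δ 1 := fun x => by simp only [hΔ, pE x, pM x, pG x]
  have posΔ : ∀ x, 0 < Δ x := fun x => by
    have : Δ x = (E x * G x - M x ^ 2) / G x := by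
      simp only [hΔ]; field_simp [hGne x]
    rw [this]; exact div_pos (posdet x) (posG x)
  obtain ⟨c0, hc0, hc0le⟩ := periodic_lower hΔs.continuous pΔ posΔ
  obtain ⟨C, hC, hCle⟩ := periodic_upper hds.continuous pd
  -- choice of the wrapping number
  obtain ⟨k, hk⟩ := exists_nat_gt (C / √c0)
  have hsc0 : 0 < √c0 := Real.sqrt_pos.mpr hc0
  have hkpos : 0 < (k : ℝ) := lt_trans (div_pos hC hsc0) hk
  set N : ℕ := q.den * k with hN
  have hden : (1 : ℝ) ≤ (q.den : ℝ) := by exact_mod_cast q.pos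
  have hNk : (k : ℝ) ≤ (N : ℝ) := by
    rw [hN]; push_cast; nlinarith
  set a : ℝ := 2 * Real.pi * N with ha
  have hpi : (1 : ℝ) ≤ 2 * Real.pi := by linarith [Real.pi_gt_three]
  have haN : (k : ℝ) ≤ a := by
    rw [ha]; nlinarith
  have hapos : 0 < a := lt_of_lt_of_le hkpos haN
  have hasq : C ^ 2 < a ^ 2 * c0 := by
    have h1 : C < a * √c0 := by
      have := lt_of_lt_of_le hk haN
      rwa [div_lt_iff₀ hsc0] at this
    have h2 : C ^ 2 < (a * √c0) ^ 2 := by
      apply pow_lt_pow_left₀ h1 hC.le (by norm_num)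
    rwa [mul_pow, Real.sq_sqrt hc0.le] at h2
  -- the speed of the second circle
  set H : ℝ → ℝ := fun x => Δ x - (d x / a) ^ 2 with hH
  have hHs : ContDiff ℝ ∞ H := hΔs.sub ((hds.div_const a).pow 2)
  have pH : Function.Periodic H 1 := fun x => by simp only [hH, pΔ x, pd x]
  have posH : ∀ x, 0 < H x := fun x => by
    have h1 : (d x) ^ 2 ≤ C ^ 2 := by
      rw [← sq_abs]; exact pow_le_pow_left₀ (abs_nonneg _) (hCle x) 2
    have h2 : (d x / a) ^ 2 < c0 := by
      rw [div_pow, div_lt_iff₀ (by positivity)]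
      nlinarith
    simp only [hH]; linarith [hc0le x]
  set h : ℝ → ℝ := fun x => √(H x) with hh
  have hhs : ContDiff ℝ ∞ h := hHs.sqrt (fun x => (posH x).ne')
  have ph : Function.Periodic h 1 := fun x => by simp only [hh, pH x]
  have posh : ∀ x, 0 < h x := fun x => Real.sqrt_pos.mpr (posH x)
  set s : ℝ → ℝ := fun u => ∫ t in (0:ℝ)..u, h t with hs
  have hss : ContDiff ℝ ∞ s := prim_contDiff hhs
  have hs1 : 0 < s 1 :=
    intervalIntegral.intervalIntegral_pos_of_pos (hhs.continuous.intervalIntegrable _ _)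
      posh zero_lt_one
  set R : ℝ := s 1 / (2 * Real.pi) with hR
  have hRpos : 0 < R := div_pos hs1 (by positivity)
  -- the phase
  set κ : ℝ → ℝ := fun x => M x / G x with hκ
  have hκs : ContDiff ℝ ∞ κ := hM.div hG hGne
  have pκ : Function.Periodic κ 1 := fun x => by simp only [hκ, pM x, pG x]
  set ψ : ℝ → ℝ := fun u => ∫ t in (0:ℝ)..u, κ t with hψ
  have hψs : ContDiff ℝ ∞ ψ := prim_contDiff hκs
  set r : ℝ → ℝ := fun x => g0 x / a with hr
  have hrs : ContDiff ℝ ∞ r := hg0s.div_const a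
  refine ⟨model r ψ s a R, model_contDiff hrs hψs hss, ?_, ?_, ?_⟩
  · -- periodicity in x
    intro x y
    have e1 : r (x + 1) = r x := by simp only [hr, pg0 x]
    have e2 : ψ (x + 1) = ψ x + q := by
      simp only [hψ]; rw [prim_periodic hκs.continuous pκ x, hq]
    have e3 : s (x + 1) = s x + s 1 := by
      simp only [hs]; rw [prim_periodic hhs.continuous ph x]
    have e4 : a * (y + (ψ x + q)) = a * (y + ψ x) + ((q.num * k : ℤ) : ℝ) * (2 * Real.pi) := by
      have hqq : (q : ℝ) * (q.den : ℝ) = (q.num : ℝ) := by exact_mod_cast Rat.mul_den_eq_num q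
      rw [ha, hN]; push_cast
      linear_combination (2 * Real.pi * k) * hqq
    have e5 : R⁻¹ * (s x + s 1) = R⁻¹ * s x + 2 * Real.pi := by
      rw [hR]; field_simp
    simp only [model, e1, e2, e3, e4, e5, Real.cos_add_int_mul_two_pi, Real.sin_add_int_mul_two_pi,
      Real.cos_add_two_pi, Real.sin_add_two_pi]
  · -- periodicity in y
    intro x y
    have e4 : a * (y + 1 + ψ x) = a * (y + ψ x) + (N : ℝ) * (2 * Real.pi) := by
      rw [ha]; ring
    simp only [model, e4, Real.cos_add_nat_mul_two_pi, Real.sin_add_nat_mul_two_pi]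
  · -- the metric
    intro p v w
    rw [model_inner hRpos.ne' hrs hψs hss]
    have f1 : deriv r p.1 = d p.1 / a := by
      simp only [hr, hd]; rw [deriv_div_const]
    have f2 : deriv ψ p.1 = M p.1 / G p.1 := by
      simp only [hψ]; rw [prim_deriv hκs.continuous]
    have f3 : deriv s p.1 = h p.1 := by
      simp only [hs]; rw [prim_deriv hhs.continuous]
    have f4 : (r p.1) ^ 2 * a ^ 2 = G p.1 := by
      simp only [hr, hg0]; rw [div_pow, Real.sq_sqrt (posG p.1).le]; field_simp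
    have f5 : (h p.1) ^ 2 = E p.1 - M p.1 ^ 2 / G p.1 - (d p.1 / a) ^ 2 := by
      simp only [hh]; rw [Real.sq_sqrt (posH p.1).le]
    rw [f4, f1, f2, f3, f5]
    have hg := hGne p.1
    field_simp
    ring

end Vale.Agent.Results.P205.TorusCircleInvariantRat
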